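import Vale.Agent.P371.MatFinal
import Vale.Agent.P371.PointMat

/-!
# P371, `γ = 1`, matrix potentials of every size: the one-dimensional Lieb-Thirring conjecture.

The definitions used by the statement (`trPow`, `IsH1`, `IsPotential`, `IsEigen`, `IsEigenFamily`,
`negTrace`, `negLow`, `ltConst`, `ltOne`) are in `Vale.Agent.P371.MatFinalDefs`
(namespace `P371M`).
-/

namespace Vale.Agent.Results.P371.A_AllM

open _root_.P371M

/-- For every matrix size `m ≥ 1` the sharp one-dimensional Lieb-Thirring constant at `γ = 1`
equals the (scalar) one-bound-state constant, and the value is `4 / (3 √3 π)`. -/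
theorem result :
    ∀ m : ℕ, 1 ≤ m →
      ltConst 1 m = ltOne 1 ∧ ltConst 1 m = ENNReal.ofReal (4 / (3 * √3 * Real.pi)) := by
  intro m hm
  have h := final (m := m) (fun n k c hc => _root_.P371.pointwiseMat hc) hm
  exact ⟨h.1, h.1.trans h.2⟩

end Vale.Agent.Results.P371.A_AllM
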