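import Vale.Agent.P371.Example

/-!
# P371, `γ = 1`, scalar potentials: the one-dimensional Lieb-Thirring conjecture holds.

The definitions used by the statement (`IsH1`, `IsPotential`, `IsEigen`, `IsEigenFamily`,
`negTrace`, `negLow`, `ltConst`, `ltOne`) are in `Vale.Agent.P371.FinalDefs`.
-/

namespace Vale.Agent.Results.P371.A_GammaOne

open _root_.P371

/-- The sharp scalar one-dimensional Lieb-Thirring constant at `γ = 1` equals the
one-bound-state constant, and its value is `4 / (3 √3 π)`. -/
theorem result :
    ltConst 1 = ltOne 1 ∧ ltConst 1 = ENNReal.ofReal (4 / (3 * √3 * Real.pi)) :=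
  ⟨ltConst_one.1, ltConst_one.1.trans ltConst_one.2⟩

end Vale.Agent.Results.P371.A_GammaOne
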