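import Vale.Agent.P371G.All

/-!
# P371: all sharp one-dimensional Lieb-Thirring constants for `1/2 < γ < 3/2`, all matrix sizes.

The definitions used by the statement (`trPow`, `IsH1`, `IsPotential`, `IsEigen`, `IsEigenFamily`,
`negTrace`, `negLow`, `ltConst`, `ltOne`) are in `Vale.Agent.P371.MatFinalDefs`
(namespace `P371M`).
-/

namespace Vale.Agent.Results.P371.B_Full

open _root_.P371M

/-- For every `1/2 < γ < 3/2` and every matrix size `m ≥ 1` the sharp one-dimensional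
Lieb-Thirring constant `L_γ(m)` equals the (scalar) one-bound-state constant `L_γ^{(1)}`, and
the value is `2 ((γ-1/2)/(γ+1/2))^{γ-1/2} Γ(γ+1)/(2 √π Γ(γ+3/2))`. -/
theorem result :
    ∀ γ : ℝ, 1 / 2 < γ → γ < 3 / 2 → ∀ m : ℕ, 1 ≤ m →
      ltConst γ m = ltOne γ ∧
      ltConst γ m = ENNReal.ofReal (2 * ((γ - 1 / 2) / (γ + 1 / 2)) ^ (γ - 1 / 2) *
        (Real.Gamma (γ + 1) / (2 * √Real.pi * Real.Gamma (γ + 3 / 2)))) := by
  intro γ h1 h2 m hm
  exact _root_.P371G.full h1 h2 hm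

end Vale.Agent.Results.P371.B_Full
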