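import Vale.Agent.P371G.All

/-!
# P371: the sharp one-dimensional Lieb-Thirring inequality for `1/2 < γ < 3/2`, all matrix sizes,
with an explicit optimizer.

`trPow`, `IsH1`, `IsPotential`, `IsEigen`, `IsEigenFamily`, `ltConst`, `ltOne` are in
`Vale.Agent.P371.MatFinalDefs` (namespace `P371M`).
-/

namespace Vale.Agent.Results.P371.C_SharpInequality

open MeasureTheory Matrix
open _root_.P371M

/-- `2 ((γ-1/2)/(γ+1/2))^{γ-1/2} L^cl_γ`, with `L^cl_γ = Γ(γ+1)/(2 √π Γ(γ+3/2))`. -/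
noncomputable def L (γ : ℝ) : ℝ :=
  2 * ((γ - 1 / 2) / (γ + 1 / 2)) ^ (γ - 1 / 2) *
    (Real.Gamma (γ + 1) / (2 * √Real.pi * Real.Gamma (γ + 3 / 2)))

/-- The optimizer `(γ² - 1/4) / cosh² x` times the `m × m` identity matrix. -/
noncomputable def opt (γ : ℝ) (m : ℕ) (x : ℝ) : Matrix (Fin m) (Fin m) ℂ :=
  (((γ ^ 2 - 1 / 4) / Real.cosh x ^ 2 : ℝ) : ℂ) • (1 : Matrix (Fin m) (Fin m) ℂ)

lemma opt_eq (γ : ℝ) (m : ℕ) : opt γ m = _root_.P371G.WqM (γ - 1 / 2) m := by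
  funext x
  unfold opt _root_.P371G.WqM _root_.P371G.Wq
  congr 3
  ring

lemma alg {q I : ℝ} (hq : 0 < q) (hI : 0 < I) :
    q ^ (2 * q + 1) = q ^ q / ((q + 1) ^ (q + 1) * I) * ((q * (q + 1)) ^ (q + 1) * I) := by
  have e : q ^ (2 * q + 1) = q ^ q * q ^ (q + 1) := by
    rw [← Real.rpow_add hq]; congr 1; ring
  have h3 : 0 < (q + 1) ^ (q + 1) := Real.rpow_pos_of_pos (by linarith) _
  rw [Real.mul_rpow hq.le (by linarith), e]
  field_simp

/-- Sharp inequality, equality case, and the value of the constants. -/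
theorem result (γ : ℝ) (h1 : 1 / 2 < γ) (h2 : γ < 3 / 2) (m : ℕ) (hm : 1 ≤ m) :
    (∀ W : ℝ → Matrix (Fin m) (Fin m) ℂ, IsPotential γ W →
      ∀ (n : ℕ) (lam : Fin n → ℝ) (u : Fin n → ℝ → Fin m → ℂ), IsEigenFamily W lam u →
        ∑ j, |lam j| ^ γ ≤ L γ * ∫ x, trPow (γ + 1 / 2) (W x)) ∧
    (IsPotential γ (opt γ m) ∧ 0 < ∫ x, trPow (γ + 1 / 2) (opt γ m x) ∧
      ∃ u : Fin m → ℝ → Fin m → ℂ,
        IsEigenFamily (opt γ m) (fun _ => -((γ - 1 / 2) ^ 2)) u ∧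
        ∑ _j : Fin m, |-((γ - 1 / 2) ^ 2)| ^ γ = L γ * ∫ x, trPow (γ + 1 / 2) (opt γ m x)) ∧
    ltConst γ m = ENNReal.ofReal (L γ) ∧ ltOne γ = ENNReal.ofReal (L γ) := by
  obtain ⟨hI, hC⟩ := _root_.P371G.const γ h1
  have hC' : _root_.P371G.Cgam γ = L γ := hC
  have hfull := _root_.P371G.full h1 h2 hm
  have hL : ltConst γ m = ENNReal.ofReal (L γ) := hfull.2
  refine ⟨fun W hW n lam u hu => ?_, ?_, hL, hfull.1 ▸ hL⟩
  · rw [← hC']
    exact _root_.P371G.allMain γ h1 h2 n m W hW lam u hu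
  · rw [opt_eq]
    have hq : 0 < γ - 1 / 2 := by linarith
    have hγ1 : γ + 1 / 2 = γ - 1 / 2 + 1 := by ring
    have hIm := _root_.P371G.WqM_int (m := m) hq hγ1
    have hm0 : (0 : ℝ) < m := by exact_mod_cast hm
    have hWp : 0 < ((γ - 1 / 2) * (γ - 1 / 2 + 1)) ^ (γ - 1 / 2 + 1) :=
      Real.rpow_pos_of_pos (by positivity) _
    refine ⟨_root_.P371G.WqM_pot hq hγ1, by rw [hIm]; positivity, ?_⟩
    obtain ⟨u, hu⟩ := _root_.P371G.WqM_family (m := m) hq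
    refine ⟨u, hu, ?_⟩
    rw [hIm, ← hC']
    clear hIm hu u hC' hfull hL hC
    have hlam : |-((γ - 1 / 2) ^ 2)| ^ γ = (γ - 1 / 2) ^ (2 * (γ - 1 / 2) + 1) := by
      rw [abs_neg, abs_of_pos (by positivity), ← Real.rpow_natCast, ← Real.rpow_mul hq.le]
      congr 1
      push_cast
      ring
    have hval : (γ - 1 / 2) ^ (2 * (γ - 1 / 2) + 1) =
        _root_.P371G.Cgam γ * (((γ - 1 / 2) * (γ - 1 / 2 + 1)) ^ (γ - 1 / 2 + 1) *
          _root_.P371G.Iq (γ - 1 / 2)) := by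
      rw [_root_.P371G.Cgam, hγ1]
      exact alg hq hI
    rw [hlam, Finset.sum_const, Finset.card_univ, Fintype.card_fin, nsmul_eq_mul, hval]
    ring

end Vale.Agent.Results.P371.C_SharpInequality
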